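import Mathlib

open Real Set MeasureTheory intervalIntegral Filter Topology

namespace Vale.Agent.H20.P205

/-- clamped angle -/
noncomputable def cl (t : ℝ) : ℝ := max (-(1/2)) (min t (1/2))

lemma continuous_cl : Continuous cl := by
  unfold cl; fun_prop

lemma cl_mem (t : ℝ) : -(1/2) ≤ cl t ∧ cl t ≤ 1/2 := by
  unfold cl
  constructor
  · exact le_max_left _ _
  · exact max_le (by norm_num) (min_le_right _ _)

lemma cl_eq {t : ℝ} (h1 : -(1/2) ≤ t) (h2 : t ≤ 1/2) : cl t = t := by
  unfold cl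
  rw [min_eq_left h2, max_eq_right h1]

lemma cl_mono : Monotone cl := by
  intro a b h
  unfold cl
  exact max_le_max le_rfl (min_le_min h le_rfl)

lemma cl_neg (t : ℝ) : cl (-t) = - cl t := by
  unfold cl
  rcases le_total t (1/2) with h | h <;> rcases le_total (-(1/2)) t with h' | h'
  · rw [min_eq_left (by linarith), min_eq_left h, max_eq_right (by linarith), max_eq_right h']
  · rw [min_eq_left h, max_eq_left h']
    rw [min_eq_right (by linarith), max_eq_right (by norm_num)]
    norm_num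
  · rw [min_eq_right h, min_eq_left (by linarith), max_eq_left (by linarith),
      max_eq_right (by norm_num)]
  · exfalso; linarith

/-- tangent of the clamped angle -/
noncomputable def T (t : ℝ) : ℝ := Real.tan (π / 4 + cl t)

lemma angle_mem (t : ℝ) : 0 < π/4 + cl t ∧ π/4 + cl t < π/2 := by
  have h := cl_mem t
  have hp : (3:ℝ) < π := Real.pi_gt_three
  constructor <;> linarith [h.1, h.2]

lemma cos_angle_pos (t : ℝ) : 0 < Real.cos (π/4 + cl t) := by
  have h := angle_mem t
  apply Real.cos_pos_of_mem_Ioo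
  constructor <;> linarith [h.1, h.2, Real.pi_pos]

lemma sin_angle_pos (t : ℝ) : 0 < Real.sin (π/4 + cl t) := by
  have h := angle_mem t
  apply Real.sin_pos_of_pos_of_lt_pi <;> linarith [h.1, h.2, Real.pi_pos]

lemma T_pos (t : ℝ) : 0 < T t := by
  unfold T
  rw [Real.tan_eq_sin_div_cos]
  exact div_pos (sin_angle_pos t) (cos_angle_pos t)

lemma continuous_T : Continuous T := by
  unfold T
  have : (fun t => Real.tan (π/4 + cl t)) = fun t => Real.sin (π/4 + cl t) / Real.cos (π/4 + cl t) := by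
    funext t; rw [Real.tan_eq_sin_div_cos]
  rw [this]
  apply Continuous.div
  · exact Real.continuous_sin.comp (continuous_const.add continuous_cl)
  · exact Real.continuous_cos.comp (continuous_const.add continuous_cl)
  · intro t; exact (cos_angle_pos t).ne'

lemma T_mono : Monotone T := by
  intro a b h
  rcases (cl_mono h).eq_or_lt with he | hl
  · unfold T; rw [he]
  · unfold T
    apply le_of_lt
    have ha := angle_mem a
    have hb := angle_mem b
    apply Real.tan_lt_tan_of_lt_of_lt_pi_div_two <;> linarith [ha.1, hb.2, Real.pi_pos]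

lemma T_strict {a b : ℝ} (ha : -(1/2) ≤ a) (hb : b ≤ 1/2) (h : a < b) : T a < T b := by
  unfold T
  rw [cl_eq ha (by linarith), cl_eq (by linarith) hb]
  have hp : (3:ℝ) < π := Real.pi_gt_three
  apply Real.tan_lt_tan_of_lt_of_lt_pi_div_two <;> linarith

lemma T_neg (t : ℝ) : T (-t) = (T t)⁻¹ := by
  unfold T
  rw [cl_neg]
  have : π/4 + - cl t = π/2 - (π/4 + cl t) := by ring
  rw [this, Real.tan_pi_div_two_sub]

/-- lower Lipschitz bound -/
lemma T_sub {a b : ℝ} (ha : -(1/2) ≤ a) (hb : b ≤ 1/2) (h : a ≤ b) : b - a ≤ T b - T a := by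
  have hp : (3:ℝ) < π := Real.pi_gt_three
  have hp4 : π < 4 := Real.pi_lt_four
  rcases h.eq_or_lt with he | hl
  · subst he; simp
  have hca : 0 < Real.cos (π/4 + a) := by
    have := cos_angle_pos a; rwa [cl_eq ha (by linarith)] at this
  have hcb : 0 < Real.cos (π/4 + b) := by
    have := cos_angle_pos b; rwa [cl_eq (by linarith) hb] at this
  have key : T b - T a = Real.sin (b - a) / (Real.cos (π/4 + b) * Real.cos (π/4 + a)) := by
    unfold T
    rw [cl_eq ha (by linarith), cl_eq (by linarith) hb, Real.tan_eq_sin_div_cos,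
      Real.tan_eq_sin_div_cos]
    have : b - a = (π/4 + b) - (π/4 + a) := by ring
    rw [this, Real.sin_sub, div_sub_div _ _ hcb.ne' hca.ne']
  have hx0 : 0 < b - a := by linarith
  have hx1 : b - a < π/2 := by linarith
  have hs : 0 < Real.sin (b - a) := Real.sin_pos_of_pos_of_lt_pi hx0 (by linarith)
  have hc : Real.cos (π/4 + b) ≤ Real.cos (b - a) := by
    apply Real.cos_le_cos_of_nonneg_of_le_pi <;> linarith
  have hcx : 0 < Real.cos (b - a) := lt_of_lt_of_le hcb hc
  have ht : b - a < Real.tan (b - a) := Real.lt_tan hx0 hx1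
  rw [key]
  have h1 : Real.cos (π/4 + b) * Real.cos (π/4 + a) ≤ Real.cos (b - a) := by
    calc Real.cos (π/4 + b) * Real.cos (π/4 + a) ≤ Real.cos (π/4 + b) * 1 := by
          apply mul_le_mul_of_nonneg_left (Real.cos_le_one _) hcb.le
      _ ≤ Real.cos (b - a) := by rw [mul_one]; exact hc
  calc b - a ≤ Real.tan (b - a) := ht.le
    _ = Real.sin (b - a) / Real.cos (b - a) := Real.tan_eq_sin_div_cos _
    _ ≤ _ := by
      apply div_le_div_of_nonneg_left hs.le (mul_pos hcb hca) h1

lemma T_le (t : ℝ) : T t ≤ 4 := by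
  have hp : (3:ℝ) < π := Real.pi_gt_three
  have hp4 : π < 4 := Real.pi_lt_four
  have h := cl_mem t
  have hc : Real.cos (π/4 + 1/2) ≤ Real.cos (π/4 + cl t) := by
    apply Real.cos_le_cos_of_nonneg_of_le_pi <;> linarith [h.1, h.2]
  have hc2 : (1/4 : ℝ) ≤ Real.cos (π/4 + 1/2) := by
    rw [Real.cos_add, Real.cos_pi_div_four, Real.sin_pi_div_four]
    have h1 : (7/8 : ℝ) ≤ Real.cos (1/2) := by
      have := Real.one_sub_sq_div_two_le_cos (x := 1/2)
      norm_num at this ⊢; linarith
    have h2 : Real.sin (1/2) ≤ 1/2 := Real.sin_le (by norm_num)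
    have h3 : (4/3:ℝ) ≤ √2 := by
      apply Real.le_sqrt_of_sq_le; norm_num
    nlinarith
  have hs : Real.sin (π/4 + cl t) ≤ 1 := Real.sin_le_one _
  unfold T
  rw [Real.tan_eq_sin_div_cos, div_le_iff₀ (cos_angle_pos t)]
  linarith

lemma le_T (t : ℝ) : 1/4 ≤ T t := by
  have h := T_le (-t)
  rw [T_neg] at h
  have h2 := T_pos t
  rw [inv_le_comm₀ h2 (by norm_num)] at h
  linarith [h]

lemma T_zero : T 0 = 1 := by
  unfold T
  rw [cl_eq (by norm_num) (by norm_num), add_zero, Real.tan_pi_div_four]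

lemma quad_ineq {T1 T2 k : ℝ} (h1 : 0 < T1) (h2 : 0 < T2) (h1' : T1 ≤ 4) (h2' : T2 ≤ 4) (hk : 0 < k) :
    (T1 - T2)^2 / 64 ≤ (T1 / k + k / T1 - 2) + (T2 / k + k / T2 - 2) := by
  have hP : 0 < T1 * T2 := mul_pos h1 h2
  have hP16 : T1 * T2 ≤ 16 := by nlinarith
  have hX : (T1 - T2)^2 ≤ 16 := by nlinarith
  have e : (T1 / k + k / T1 - 2) + (T2 / k + k / T2 - 2) - (T1 - T2)^2 / 64
      = ((T1 + T2) * k^2 - k * (4 * (T1 * T2) + T1 * T2 * (T1 - T2)^2 / 64) + (T1 + T2) * (T1 * T2))
        / (k * (T1 * T2)) := by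
    field_simp
    ring
  have hS : 0 < T1 + T2 := by linarith
  have hn : 0 ≤ (T1 + T2) * k^2 - k * (4 * (T1 * T2) + T1 * T2 * (T1 - T2)^2 / 64)
      + (T1 + T2) * (T1 * T2) := by
    set b := 4 * (T1 * T2) + T1 * T2 * (T1 - T2)^2 / 64 with hb
    have hdisc : b^2 ≤ 4 * (T1 + T2)^2 * (T1 * T2) := by
      have hSX : (T1 + T2)^2 = (T1 - T2)^2 + 4 * (T1 * T2) := by ring
      rw [hSX, hb]
      set P := T1 * T2
      set X := (T1 - T2)^2
      have hX0 : 0 ≤ X := sq_nonneg _
      have : P * (1/8 + X / 4096) ≤ 4 := by nlinarith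
      nlinarith [mul_nonneg (mul_nonneg hP.le hX0) (sub_nonneg.2 this)]
    have : 0 ≤ (T1 + T2) * ((T1 + T2) * k^2 - k * b + (T1 + T2) * (T1 * T2)) := by
      nlinarith [sq_nonneg (2 * (T1 + T2) * k - b)]
    exact nonneg_of_mul_nonneg_right this hS
  have : 0 ≤ (T1 / k + k / T1 - 2) + (T2 / k + k / T2 - 2) - (T1 - T2)^2 / 64 := by
    rw [e]; exact div_nonneg hn (mul_pos hk hP).le
  linarith

lemma h_nonneg {t k : ℝ} (ht : 0 < t) (hk : 0 < k) : 0 ≤ t / k + k / t - 2 := by
  have e : t / k + k / t - 2 = (t - k)^2 / (t * k) := by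
    field_simp; ring
  rw [e]; positivity

lemma integral_sin_sq_half : ∫ x in (0:ℝ)..(1/2), Real.sin (2 * π * x) ^ 2 = 1/4 := by
  have h := intervalIntegral.integral_comp_mul_left (a := 0) (b := 1/2)
    (fun y => Real.sin y ^ 2) (c := 2 * π) (by positivity)
  rw [h, integral_sin_sq]
  have e : 2 * π * (1/2) = π := by ring
  rw [e]
  simp
  field_simp
  norm_num

/-- the lower bound for the integral of `h` -/
lemma int_h {τ k : ℝ} (hτ : -(1/4) ≤ τ) (hτ' : τ ≤ 1/4) (hk : 0 < k) :
    1/4096 ≤ ∫ x in (0:ℝ)..1, (T (τ + 1/8 * Real.sin (2 * π * x)) / k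
      + k / T (τ + 1/8 * Real.sin (2 * π * x)) - 2) := by
  set h : ℝ → ℝ := fun x => (T (τ + 1/8 * Real.sin (2 * π * x)) / k
      + k / T (τ + 1/8 * Real.sin (2 * π * x)) - 2) with hh
  have hc : Continuous h := by
    have h1 : Continuous fun x : ℝ => T (τ + 1/8 * Real.sin (2 * π * x)) :=
      continuous_T.comp (by fun_prop)
    apply Continuous.sub _ continuous_const
    apply Continuous.add (h1.div_const _)
    exact continuous_const.div h1 (fun x => (T_pos _).ne')
  have hi : ∀ a b, IntervalIntegrable h volume a b := fun a b => hc.intervalIntegrable a b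
  rw [← intervalIntegral.integral_add_adjacent_intervals (hi 0 (1/2)) (hi (1/2) 1)]
  have e2 : ∫ x in (1/2:ℝ)..1, h x = ∫ x in (0:ℝ)..(1/2), h (x + 1/2) := by
    rw [intervalIntegral.integral_comp_add_right]
    norm_num
  have hc2 : Continuous fun x => h (x + 1/2) := hc.comp (by fun_prop)
  rw [e2, ← intervalIntegral.integral_add (hi _ _) (hc2.intervalIntegrable _ _)]
  calc (1/4096:ℝ) = ∫ x in (0:ℝ)..(1/2), (1/1024) * Real.sin (2 * π * x) ^ 2 := by
        rw [intervalIntegral.integral_const_mul, integral_sin_sq_half]; norm_num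
    _ ≤ _ := by
        apply intervalIntegral.integral_mono_on (by norm_num)
        · apply Continuous.intervalIntegrable; fun_prop
        · apply Continuous.intervalIntegrable
          exact hc.add hc2
        · intro x hx
          have hs : 0 ≤ Real.sin (2 * π * x) := by
            apply Real.sin_nonneg_of_nonneg_of_le_pi
            · have := hx.1; positivity
            · nlinarith [hx.2, Real.pi_pos]
          have hs1 := Real.sin_le_one (2 * π * x)
          have es : Real.sin (2 * π * (x + 1/2)) = - Real.sin (2 * π * x) := by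
            have : 2 * π * (x + 1/2) = 2 * π * x + π := by ring
            rw [this, Real.sin_add_pi]
          simp only [hh, es]
          have hq := quad_ineq (T_pos (τ + 1/8 * Real.sin (2 * π * x)))
            (T_pos (τ + 1/8 * -Real.sin (2 * π * x))) (T_le _) (T_le _) hk
          have hl := T_sub (a := τ + 1/8 * -Real.sin (2 * π * x))
            (b := τ + 1/8 * Real.sin (2 * π * x)) (by linarith) (by linarith) (by linarith)
          refine le_trans ?_ hq
          have h3 : 0 ≤ 1/4 * Real.sin (2 * π * x) := by positivity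
          nlinarith

/-- abstract two-parameter intermediate value argument -/
theorem ivt2 (A B : ℝ → ℝ → ℝ) (hAc : Continuous fun p : ℝ × ℝ => A p.1 p.2)
    (hBc : Continuous fun p : ℝ × ℝ => B p.1 p.2) (α β k c1 r : ℝ) (hk : 0 < k) (hc1 : 0 ≤ c1)
    (hr : 0 ≤ r)
    (hup : ∀ c ∈ Icc (0:ℝ) c1, α ≤ A c r)
    (hlo : ∀ c ∈ Icc (0:ℝ) c1, A c (-r) ≤ α)
    (hstrict : ∀ c ∈ Icc (0:ℝ) c1, ∀ τ1 ∈ Icc (-r) r, ∀ τ2 ∈ Icc (-r) r,
      τ1 ≤ τ2 → (τ2 - τ1) * k ≤ A c τ2 - A c τ1)
    (h0 : ∀ τ ∈ Icc (-r) r, A 0 τ = α → B 0 τ ≤ β)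
    (h1 : ∀ τ ∈ Icc (-r) r, A c1 τ = α → β ≤ B c1 τ) :
    ∃ c ∈ Icc (0:ℝ) c1, ∃ τ ∈ Icc (-r) r, A c τ = α ∧ B c τ = β := by
  have hex : ∀ c ∈ Icc (0:ℝ) c1, ∃ τ ∈ Icc (-r) r, A c τ = α := by
    intro c hc
    have hcont : ContinuousOn (A c) (Icc (-r) r) :=
      (hAc.comp (by fun_prop : Continuous fun τ : ℝ => (c, τ))).continuousOn
    have := intermediate_value_Icc (by linarith : -r ≤ r) hcont
    exact this ⟨hlo c hc, hup c hc⟩
  choose! t ht htA using hex
  have hdiff : ∀ c ∈ Icc (0:ℝ) c1, ∀ c0 ∈ Icc (0:ℝ) c1,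
      |t c - t c0| * k ≤ |A c (t c0) - A c0 (t c0)| := by
    intro c hc c0 hc0
    rw [htA c0 hc0, ← htA c hc]
    rcases le_total (t c) (t c0) with h | h
    · have := hstrict c hc (t c) (ht c hc) (t c0) (ht c0 hc0) h
      rw [abs_of_nonpos (by linarith)]
      have h2 := le_abs_self (A c (t c0) - A c (t c))
      linarith
    · have := hstrict c hc (t c0) (ht c0 hc0) (t c) (ht c hc) h
      rw [abs_of_nonneg (by linarith)]
      have h2 := neg_abs_le (A c (t c0) - A c (t c))
      linarith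
  have htc : ContinuousOn t (Icc (0:ℝ) c1) := by
    intro c0 hc0
    have hlim : Tendsto (fun c => |A c (t c0) - A c0 (t c0)| * k⁻¹) (𝓝[Icc (0:ℝ) c1] c0) (𝓝 0) := by
      have : Continuous fun c => |A c (t c0) - A c0 (t c0)| * k⁻¹ := by
        apply Continuous.mul _ continuous_const
        apply Continuous.abs
        exact (hAc.comp (by fun_prop : Continuous fun c : ℝ => (c, t c0))).sub continuous_const
      have h2 := (this.tendsto c0).mono_left (nhdsWithin_le_nhds (s := Icc (0:ℝ) c1))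
      simpa using h2
    unfold ContinuousWithinAt
    rw [tendsto_iff_norm_sub_tendsto_zero]
    refine squeeze_zero' (Eventually.of_forall fun _ => norm_nonneg _) ?_ hlim
    filter_upwards [self_mem_nhdsWithin] with c hc
    have := hdiff c hc c0 hc0
    rw [Real.norm_eq_abs]
    have h3 : |t c - t c0| = (|t c - t c0| * k) * k⁻¹ := by field_simp
    rw [h3]
    exact mul_le_mul_of_nonneg_right this (by positivity)
  have hBt : ContinuousOn (fun c => B c (t c)) (Icc (0:ℝ) c1) := by
    have hg : ContinuousOn (fun c => ((c, t c) : ℝ × ℝ)) (Icc (0:ℝ) c1) :=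
      ContinuousOn.prodMk continuousOn_id htc
    exact Continuous.comp_continuousOn (g := fun p : ℝ × ℝ => B p.1 p.2) hBc hg
  have m0 : (0:ℝ) ∈ Icc (0:ℝ) c1 := ⟨le_rfl, hc1⟩
  have m1 : c1 ∈ Icc (0:ℝ) c1 := ⟨hc1, le_rfl⟩
  have := intermediate_value_Icc hc1 hBt
  obtain ⟨c, hc, hcB⟩ := this ⟨h0 _ (ht 0 m0) (htA 0 m0), h1 _ (ht c1 m1) (htA c1 m1)⟩
  exact ⟨c, hc, t c, ht c hc, htA c hc, hcB⟩

set_option maxHeartbeats 1000000 in
/-- solving the two period equations simultaneously -/
theorem solve (D : ℝ → ℝ) (v : ℝ → ℝ → ℝ) (d ε ε' α β : ℝ)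
    (hDc : Continuous D) (hd : 0 < d) (hD : ∀ x, d ≤ D x)
    (hv : Continuous (Function.uncurry v))
    (hv1 : ∀ c ∈ Icc (0:ℝ) (1/8), ∀ x, D x - ε ≤ v c x)
    (hv2 : ∀ c ∈ Icc (0:ℝ) (1/8), ∀ x, v c x ≤ D x)
    (hε : 0 ≤ ε) (hε' : 0 ≤ ε') (hs : ε + ε' ≤ d / 16384)
    (hα : (∫ x in (0:ℝ)..1, D x) ≤ α) (hα' : α ≤ (∫ x in (0:ℝ)..1, D x) + ε')
    (hβ : (∫ x in (0:ℝ)..1, D x) ≤ β) (hβ' : β ≤ (∫ x in (0:ℝ)..1, D x) + ε') :
    ∃ c ∈ Icc (0:ℝ) (1/8), ∃ τ ∈ Icc (-(1/4):ℝ) (1/4),
      (∫ x in (0:ℝ)..1, T (τ + c * Real.sin (2 * π * x)) * v c x) = α ∧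
      (∫ x in (0:ℝ)..1, T (-(τ + c * Real.sin (2 * π * x))) * v c x) = β := by
  set a := ∫ x in (0:ℝ)..1, D x with ha
  have had : d ≤ a := by
    calc d = ∫ x in (0:ℝ)..1, d := by simp
      _ ≤ a := intervalIntegral.integral_mono_on (by norm_num) (by simp)
          (hDc.intervalIntegrable _ _) (fun x _ => hD x)
  have ha0 : 0 < a := by linarith
  have hα0 : 0 < α := by linarith
  have hvc : ∀ c, Continuous (v c) := fun c => hv.comp (by fun_prop : Continuous fun x : ℝ => (c, x))
  set A : ℝ → ℝ → ℝ := fun c τ => ∫ x in (0:ℝ)..1, T (τ + c * Real.sin (2 * π * x)) * v c x with hA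
  set B : ℝ → ℝ → ℝ := fun c τ => ∫ x in (0:ℝ)..1, T (-(τ + c * Real.sin (2 * π * x))) * v c x
    with hB
  have hAc : Continuous fun p : ℝ × ℝ => A p.1 p.2 := by
    apply intervalIntegral.continuous_parametric_intervalIntegral_of_continuous'
    simp only [Function.uncurry_def]
    apply Continuous.mul
    · exact continuous_T.comp (by fun_prop)
    · exact hv.comp (by fun_prop : Continuous fun p : (ℝ × ℝ) × ℝ => (p.1.1, p.2))
  have hBc : Continuous fun p : ℝ × ℝ => B p.1 p.2 := by
    apply intervalIntegral.continuous_parametric_intervalIntegral_of_continuous'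
    simp only [Function.uncurry_def]
    apply Continuous.mul
    · exact continuous_T.comp (by fun_prop)
    · exact hv.comp (by fun_prop : Continuous fun p : (ℝ × ℝ) × ℝ => (p.1.1, p.2))
  have hTv : ∀ c τ, Continuous fun x : ℝ => T (τ + c * Real.sin (2 * π * x)) * v c x := by
    intro c τ
    exact (continuous_T.comp (by fun_prop)).mul (hvc c)
  have hTv' : ∀ c τ, Continuous fun x : ℝ => T (-(τ + c * Real.sin (2 * π * x))) * v c x := by
    intro c τ
    exact (continuous_T.comp (by fun_prop)).mul (hvc c)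
  have hvlow : ∀ c ∈ Icc (0:ℝ) (1/8), ∀ x, d / 2 ≤ v c x := by
    intro c hc x
    have := hv1 c hc x
    have := hD x
    linarith
  have hIv1 : ∀ c ∈ Icc (0:ℝ) (1/8), a - ε ≤ ∫ x in (0:ℝ)..1, v c x := by
    intro c hc
    calc a - ε = ∫ x in (0:ℝ)..1, (D x - ε) := by
          rw [intervalIntegral.integral_sub (hDc.intervalIntegrable _ _) (by simp)]; simp [ha]
      _ ≤ _ := intervalIntegral.integral_mono_on (by norm_num)
          ((hDc.sub continuous_const).intervalIntegrable _ _) ((hvc c).intervalIntegrable _ _)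
          (fun x _ => hv1 c hc x)
  have hIv2 : ∀ c ∈ Icc (0:ℝ) (1/8), ∫ x in (0:ℝ)..1, v c x ≤ a := by
    intro c hc
    exact intervalIntegral.integral_mono_on (by norm_num)
          ((hvc c).intervalIntegrable _ _) (hDc.intervalIntegrable _ _)
          (fun x _ => hv2 c hc x)
  have hT8 : 9/8 ≤ T (1/8) := by
    have := T_sub (a := 0) (b := 1/8) (by norm_num) (by norm_num) (by norm_num)
    rw [T_zero] at this; linarith
  have hcs : ∀ c ∈ Icc (0:ℝ) (1/8), ∀ x : ℝ, -(1/8) ≤ c * Real.sin (2 * π * x) ∧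
      c * Real.sin (2 * π * x) ≤ 1/8 := by
    intro c hc x
    have h1 := Real.sin_le_one (2 * π * x)
    have h2 := Real.neg_one_le_sin (2 * π * x)
    constructor <;> nlinarith [hc.1, hc.2]
  -- upper endpoint
  have hup : ∀ c ∈ Icc (0:ℝ) (1/8), α ≤ A c (1/4) := by
    intro c hc
    calc α ≤ 9/8 * (a - ε) := by linarith
      _ ≤ 9/8 * ∫ x in (0:ℝ)..1, v c x := by linarith [hIv1 c hc]
      _ = ∫ x in (0:ℝ)..1, 9/8 * v c x := by rw [intervalIntegral.integral_const_mul]
      _ ≤ _ := by
        apply intervalIntegral.integral_mono_on (by norm_num)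
        · exact (continuous_const.mul (hvc c)).intervalIntegrable _ _
        · exact (hTv c (1/4)).intervalIntegrable _ _
        · intro x _
          have hv0 : 0 ≤ v c x := by linarith [hvlow c hc x]
          apply mul_le_mul_of_nonneg_right _ hv0
          refine hT8.trans (T_mono ?_)
          linarith [(hcs c hc x).1]
  have hlo : ∀ c ∈ Icc (0:ℝ) (1/8), A c (-(1/4)) ≤ α := by
    intro c hc
    have hT8' : T (-(1/8)) ≤ 1 := by
      rw [T_neg]
      exact inv_le_one_of_one_le₀ (by linarith)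
    calc A c (-(1/4)) ≤ ∫ x in (0:ℝ)..1, v c x := by
          apply intervalIntegral.integral_mono_on (by norm_num)
          · exact (hTv c (-(1/4))).intervalIntegrable _ _
          · exact (hvc c).intervalIntegrable _ _
          · intro x _
            have hv0 : 0 ≤ v c x := by linarith [hvlow c hc x]
            have : T (-(1/4) + c * Real.sin (2 * π * x)) ≤ 1 := by
              refine (T_mono ?_).trans hT8'
              linarith [(hcs c hc x).2]
            nlinarith
      _ ≤ a := hIv2 c hc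
      _ ≤ α := hα
  have hstrict : ∀ c ∈ Icc (0:ℝ) (1/8), ∀ τ1 ∈ Icc (-(1/4):ℝ) (1/4), ∀ τ2 ∈ Icc (-(1/4):ℝ) (1/4),
      τ1 ≤ τ2 → (τ2 - τ1) * (d/2) ≤ A c τ2 - A c τ1 := by
    intro c hc τ1 h1 τ2 h2 h12
    have e : A c τ2 - A c τ1 = ∫ x in (0:ℝ)..1, (T (τ2 + c * Real.sin (2 * π * x)) * v c x
        - T (τ1 + c * Real.sin (2 * π * x)) * v c x) := by
      rw [intervalIntegral.integral_sub ((hTv c τ2).intervalIntegrable _ _)
        ((hTv c τ1).intervalIntegrable _ _)]
    rw [e]
    calc (τ2 - τ1) * (d/2) = ∫ x in (0:ℝ)..1, (τ2 - τ1) * (d/2) := by simp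
      _ ≤ _ := by
        apply intervalIntegral.integral_mono_on (by norm_num)
        · simp
        · exact ((hTv c τ2).sub (hTv c τ1)).intervalIntegrable _ _
        · intro x _
          have hl := T_sub (a := τ1 + c * Real.sin (2 * π * x)) (b := τ2 + c * Real.sin (2 * π * x))
            (by linarith [(hcs c hc x).1, h1.1]) (by linarith [(hcs c hc x).2, h2.2]) (by linarith)
          have hv0 := hvlow c hc x
          have : (τ2 - τ1) * (d/2) ≤ (T (τ2 + c * Real.sin (2 * π * x))
              - T (τ1 + c * Real.sin (2 * π * x))) * v c x := by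
            apply mul_le_mul _ hv0 (by linarith) (by linarith)
            linarith
          linarith
  -- endpoint c = 0
  have h0 : ∀ τ ∈ Icc (-(1/4):ℝ) (1/4), A 0 τ = α → B 0 τ ≤ β := by
    intro τ hτm hAα
    have h0m : (0:ℝ) ∈ Icc (0:ℝ) (1/8) := by constructor <;> norm_num
    have hA0 : A 0 τ = T τ * ∫ x in (0:ℝ)..1, v 0 x := by
      simp only [hA, zero_mul, add_zero, intervalIntegral.integral_const_mul]
    have hB0 : B 0 τ = (T τ)⁻¹ * ∫ x in (0:ℝ)..1, v 0 x := by
      simp only [hB, zero_mul, add_zero, intervalIntegral.integral_const_mul, T_neg]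
    rw [hA0] at hAα
    have hT := T_pos τ
    have hV := hIv2 0 h0m
    have hV0 : 0 < ∫ x in (0:ℝ)..1, v 0 x := by linarith [hIv1 0 h0m]
    have h1 : B 0 τ * α ≤ β * α := by
      rw [hB0]
      have : (T τ)⁻¹ * (∫ x in (0:ℝ)..1, v 0 x) * α = (∫ x in (0:ℝ)..1, v 0 x)^2 := by
        rw [← hAα]; field_simp
      rw [this]
      nlinarith
    exact le_of_mul_le_mul_right h1 hα0
  have h1 : ∀ τ ∈ Icc (-(1/4):ℝ) (1/4), A (1/8) τ = α → β ≤ B (1/8) τ := by
    intro τ hτm hAα
    have h1m : (1/8:ℝ) ∈ Icc (0:ℝ) (1/8) := by constructor <;> norm_num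
    set V := ∫ x in (0:ℝ)..1, v (1/8) x with hV
    set m := V + d / 16384 with hm
    have hVl := hIv1 _ h1m
    have hm0 : 0 < m := by rw [hm]; linarith
    have hma : a + ε' ≤ m := by rw [hm]; linarith
    set k := α / m with hk
    have hk0 : 0 < k := div_pos hα0 hm0
    -- A/k + k B ≥ 2 m
    have hcT : Continuous fun x : ℝ => T (τ + 1/8 * Real.sin (2 * π * x)) :=
      continuous_T.comp (by fun_prop)
    have hkey : 2 * m ≤ A (1/8) τ / k + k * B (1/8) τ := by
      have e : A (1/8) τ / k + k * B (1/8) τ - 2 * V = ∫ x in (0:ℝ)..1,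
          (T (τ + 1/8 * Real.sin (2 * π * x)) / k
            + k / T (τ + 1/8 * Real.sin (2 * π * x)) - 2) * v (1/8) x := by
        have e1 : A (1/8) τ / k = ∫ x in (0:ℝ)..1, (T (τ + 1/8 * Real.sin (2 * π * x)) * v (1/8) x) / k := by
          rw [intervalIntegral.integral_div]
        have e2 : k * B (1/8) τ = ∫ x in (0:ℝ)..1,
            k * (T (-(τ + 1/8 * Real.sin (2 * π * x))) * v (1/8) x) := by
          rw [intervalIntegral.integral_const_mul]
        have e3 : 2 * V = ∫ x in (0:ℝ)..1, 2 * v (1/8) x := by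
          rw [intervalIntegral.integral_const_mul]
        rw [e1, e2, e3, ← intervalIntegral.integral_add, ← intervalIntegral.integral_sub]
        · apply intervalIntegral.integral_congr
          intro x _
          simp only [T_neg]
          ring
        · exact (((hTv _ τ).div_const _).add (continuous_const.mul (hTv' _ τ))).intervalIntegrable _ _
        · exact (continuous_const.mul (hvc _)).intervalIntegrable _ _
        · exact ((hTv _ τ).div_const _).intervalIntegrable _ _
        · exact (continuous_const.mul (hTv' _ τ)).intervalIntegrable _ _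
      have hle : (d/2) * (1/4096) ≤ A (1/8) τ / k + k * B (1/8) τ - 2 * V := by
        rw [e]
        calc (d/2) * (1/4096) ≤ (d/2) * ∫ x in (0:ℝ)..1, (T (τ + 1/8 * Real.sin (2 * π * x)) / k
              + k / T (τ + 1/8 * Real.sin (2 * π * x)) - 2) :=
              mul_le_mul_of_nonneg_left (int_h hτm.1 hτm.2 hk0) (by linarith)
          _ = ∫ x in (0:ℝ)..1, (d/2) * (T (τ + 1/8 * Real.sin (2 * π * x)) / k
              + k / T (τ + 1/8 * Real.sin (2 * π * x)) - 2) := by
              rw [intervalIntegral.integral_const_mul]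
          _ ≤ _ := by
            have hch : Continuous fun x : ℝ => (T (τ + 1/8 * Real.sin (2 * π * x)) / k
              + k / T (τ + 1/8 * Real.sin (2 * π * x)) - 2) := by
              apply Continuous.sub _ continuous_const
              apply Continuous.add (hcT.div_const _)
              exact continuous_const.div hcT (fun x => (T_pos _).ne')
            apply intervalIntegral.integral_mono_on (by norm_num)
            · exact (continuous_const.mul hch).intervalIntegrable _ _
            · exact (hch.mul (hvc _)).intervalIntegrable _ _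
            · intro x _
              rw [mul_comm]
              exact mul_le_mul_of_nonneg_left (hvlow _ h1m x) (h_nonneg (T_pos _) hk0)
      rw [hm]; linarith
    rw [hAα] at hkey
    have h5 : α / k = m := by rw [hk]; field_simp
    rw [h5] at hkey
    have h6 : m ≤ k * B (1/8) τ := by linarith
    have h7 : m * m ≤ α * B (1/8) τ := by
      calc m * m ≤ m * (k * B (1/8) τ) := mul_le_mul_of_nonneg_left h6 hm0.le
        _ = α * B (1/8) τ := by rw [hk]; field_simp
    have h8 : α * β ≤ α * B (1/8) τ := by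
      refine le_trans ?_ h7
      apply mul_le_mul <;> linarith
    exact le_of_mul_le_mul_left h8 hα0
  exact ivt2 A B hAc hBc α β (d/2) (1/8) (1/4) (by linarith) (by norm_num) (by norm_num)
    hup hlo hstrict h0 h1

end Vale.Agent.H20.P205
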