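import Mathlib
import Vale.Agent.H20.P205Solve

open Real Set MeasureTheory intervalIntegral Filter Topology
open scoped ContDiff

namespace Vale.Agent.H20.P205

lemma periodic_bound {f : ℝ → ℝ} (hf : Continuous f) (hp : Function.Periodic f 1) :
    ∃ L : ℝ, 0 ≤ L ∧ ∀ x, |f x| ≤ L := by
  obtain ⟨L, hL⟩ := isCompact_Icc.exists_bound_of_continuousOn (s := Icc (0:ℝ) 1) hf.continuousOn
  refine ⟨max L 0, le_max_right _ _, fun x => ?_⟩
  obtain ⟨y, hy, hxy⟩ := hp.exists_mem_Ico₀ one_pos x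
  rw [hxy]
  exact (hL y ⟨hy.1, hy.2.le⟩).trans (le_max_left _ _)

lemma periodic_pos_bound {f : ℝ → ℝ} (hf : Continuous f) (hp : Function.Periodic f 1)
    (hpos : ∀ x, 0 < f x) : ∃ d : ℝ, 0 < d ∧ ∀ x, d ≤ f x := by
  obtain ⟨x0, -, hx0⟩ := isCompact_Icc.exists_isMinOn (s := Icc (0:ℝ) 1) ⟨0, by norm_num⟩
    hf.continuousOn
  refine ⟨f x0, hpos _, fun x => ?_⟩
  obtain ⟨y, hy, hxy⟩ := hp.exists_mem_Ico₀ one_pos x
  rw [hxy]
  exact hx0 ⟨hy.1, hy.2.le⟩

/-- the primitive -/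
noncomputable def prim (N : ℝ) (p : ℝ → ℝ) (x : ℝ) : ℝ := N * ∫ t in (0:ℝ)..x, p t

lemma prim_hasDerivAt {N : ℝ} {p : ℝ → ℝ} (hp : Continuous p) (x : ℝ) :
    HasDerivAt (prim N p) (N * p x) x := by
  unfold prim
  apply HasDerivAt.const_mul
  exact intervalIntegral.integral_hasDerivAt_right (hp.intervalIntegrable _ _)
    (hp.stronglyMeasurableAtFilter _ _) hp.continuousAt

lemma prim_smooth {N : ℝ} {p : ℝ → ℝ} (hp : ContDiff ℝ ∞ p) : ContDiff ℝ ∞ (prim N p) := by
  rw [contDiff_infty_iff_deriv]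
  have h := fun x => prim_hasDerivAt (N := N) hp.continuous x
  refine ⟨fun x => (h x).differentiableAt, ?_⟩
  have : deriv (prim N p) = fun x => N * p x := by
    funext x; exact (h x).deriv
  rw [this]
  exact contDiff_const.mul hp

lemma prim_add_one {N : ℝ} {p : ℝ → ℝ} (hp : Continuous p) (hper : Function.Periodic p 1) (x : ℝ) :
    prim N p (x + 1) = prim N p x + N * ∫ t in (0:ℝ)..1, p t := by
  unfold prim
  rw [← intervalIntegral.integral_add_adjacent_intervals (hp.intervalIntegrable 0 x)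
    (hp.intervalIntegrable x (x+1)), hper.intervalIntegral_add_eq x 0]
  simp
  ring

lemma deriv_periodic {f : ℝ → ℝ} (hp : Function.Periodic f 1) : Function.Periodic (deriv f) 1 := by
  intro x
  have : f = fun y => f (y + 1) := by funext y; exact (hp y).symm
  conv_rhs => rw [this]
  rw [deriv_comp_add_const]

lemma deriv_smooth {f : ℝ → ℝ} (hf : ContDiff ℝ ∞ f) : ContDiff ℝ ∞ (deriv f) :=
  (contDiff_infty_iff_deriv.1 hf).2

set_option maxHeartbeats 1000000 in
/-- Core: solution of the three scalar equations with the right periods. -/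
theorem core (E F G : ℝ → ℝ) (hE : ContDiff ℝ ∞ E) (hF : ContDiff ℝ ∞ F) (hG : ContDiff ℝ ∞ G)
    (pE : Function.Periodic E 1) (pF : Function.Periodic F 1) (pG : Function.Periodic G 1)
    (hG0 : ∀ x, 0 < G x) (hdet : ∀ x, 0 < E x * G x - F x ^ 2) :
    ∃ (N : ℤ) (r1 r2 φ1 φ2 : ℝ → ℝ) (k1 k2 : ℤ),
      ContDiff ℝ ∞ r1 ∧ ContDiff ℝ ∞ r2 ∧ ContDiff ℝ ∞ φ1 ∧ ContDiff ℝ ∞ φ2 ∧
      Function.Periodic r1 1 ∧ Function.Periodic r2 1 ∧
      (∀ x, φ1 (x + 1) = φ1 x + k1) ∧ (∀ x, φ2 (x + 1) = φ2 x + k2) ∧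
      (∀ x, (2 * π * N) ^ 2 * (r1 x ^ 2 + r2 x ^ 2) = G x) ∧
      (∀ x, (2 * π) ^ 2 * N * (deriv φ1 x * r1 x ^ 2 + deriv φ2 x * r2 x ^ 2) = F x) ∧
      (∀ x, deriv r1 x ^ 2 + deriv r2 x ^ 2
        + (2 * π) ^ 2 * (r1 x ^ 2 * deriv φ1 x ^ 2 + r2 x ^ 2 * deriv φ2 x ^ 2) = E x) := by
  -- basic functions
  set g : ℝ → ℝ := fun x => √(G x) with hg
  have hgs : ContDiff ℝ ∞ g := hG.sqrt (fun x => (hG0 x).ne')
  have hg0 : ∀ x, 0 < g x := fun x => Real.sqrt_pos.2 (hG0 x)
  have hgsq : ∀ x, g x ^ 2 = G x := fun x => Real.sq_sqrt (hG0 x).le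
  have pg : Function.Periodic g 1 := fun x => by simp only [hg, pG x]
  set m : ℝ → ℝ := fun x => F x / G x with hm
  have hms : ContDiff ℝ ∞ m := hF.div hG (fun x => (hG0 x).ne')
  have pm : Function.Periodic m 1 := fun x => by simp only [hm, pG x, pF x]
  set Q : ℝ → ℝ := fun x => (E x * G x - F x ^ 2) / (G x) ^ 2 with hQ
  have hQs : ContDiff ℝ ∞ Q := ((hE.mul hG).sub (hF.pow 2)).div (hG.pow 2)
    (fun x => (pow_pos (hG0 x) 2).ne')
  have pQ : Function.Periodic Q 1 := fun x => by simp only [hQ, pG x, pF x, pE x]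
  have hQ0 : ∀ x, 0 < Q x := fun x => div_pos (hdet x) (pow_pos (hG0 x) 2)
  set D : ℝ → ℝ := fun x => √(Q x) with hD
  have hDc : Continuous D := Real.continuous_sqrt.comp hQs.continuous
  have pD : Function.Periodic D 1 := fun x => by simp only [hD, pQ x]
  have hD0 : ∀ x, 0 < D x := fun x => Real.sqrt_pos.2 (hQ0 x)
  have hDsq : ∀ x, D x ^ 2 = Q x := fun x => Real.sq_sqrt (hQ0 x).le
  set l : ℝ → ℝ := fun x => deriv g x / g x with hl
  have hls : ContDiff ℝ ∞ l := (deriv_smooth hgs).div hgs (fun x => (hg0 x).ne')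
  have pl : Function.Periodic l 1 := fun x => by
    simp only [hl, deriv_periodic pg x, pg x]
  obtain ⟨L, hL0, hL⟩ := periodic_bound hls.continuous pl
  obtain ⟨d, hd0, hd⟩ := periodic_pos_bound hDc pD hD0
  set K := L + 1 with hK
  obtain ⟨n, hn⟩ := exists_nat_gt ((K + 1) * 16384 / d)
  have hn0 : (0:ℝ) < n := lt_of_le_of_lt (by positivity) hn
  set δ : ℝ := 1 / (2 * π * n) with hδ
  have hδ0 : 0 < δ := by positivity
  have hδn : δ ≤ 1 / n := by
    rw [hδ]
    apply one_div_le_one_div_of_le hn0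
    nlinarith [Real.pi_gt_three]
  have hsmall : δ * K + 1 / n ≤ d / 16384 := by
    have h1 : δ * K ≤ 1 / n * K := mul_le_mul_of_nonneg_right hδn (by positivity)
    have h2 : (K + 1) * 16384 < n * d := by
      rwa [div_lt_iff₀ hd0] at hn
    have h3 : 1 / n * K + 1 / n = (K + 1) / (n : ℝ) := by ring
    have h4 : (K + 1) / (n : ℝ) ≤ d / 16384 := by
      rw [div_le_div_iff₀ hn0 (by norm_num)]
      linarith
    linarith
  -- the velocity
  set v : ℝ → ℝ → ℝ := fun c x => √(Q x - δ ^ 2 * (l x ^ 2 + (c * (2 * π * Real.cos (2 * π * x))) ^ 2))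
    with hv
  have hvc : Continuous (Function.uncurry v) := by
    simp only [hv, Function.uncurry_def]
    apply Real.continuous_sqrt.comp
    have h1 : Continuous fun p : ℝ × ℝ => Q p.2 := hQs.continuous.comp continuous_snd
    have h2 : Continuous fun p : ℝ × ℝ => l p.2 := hls.continuous.comp continuous_snd
    fun_prop
  have hM : ∀ c ∈ Icc (0:ℝ) (1/8), ∀ x, l x ^ 2 + (c * (2 * π * Real.cos (2 * π * x))) ^ 2 ≤ K ^ 2 := by
    intro c hc x
    have h1 : l x ^ 2 ≤ L ^ 2 := by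
      rw [← sq_abs]; exact pow_le_pow_left₀ (abs_nonneg _) (hL x) 2
    have h2 : (c * (2 * π * Real.cos (2 * π * x))) ^ 2 ≤ 1 := by
      have hpi := Real.pi_lt_d2
      have hpi0 := Real.pi_pos
      have h3 : Real.cos (2 * π * x) ^ 2 ≤ 1 := by
        have := Real.cos_sq_add_sin_sq (2 * π * x); nlinarith [sq_nonneg (Real.sin (2 * π * x))]
      have h4 : c ^ 2 ≤ 1 / 64 := by nlinarith [hc.1, hc.2]
      have h5 : (c * (2 * π * Real.cos (2 * π * x))) ^ 2
          = c ^ 2 * (4 * π ^ 2) * Real.cos (2 * π * x) ^ 2 := by ring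
      rw [h5]
      have h6 : c ^ 2 * (4 * π ^ 2) ≤ 1 := by nlinarith [sq_nonneg c]
      have h7 : 0 ≤ c ^ 2 * (4 * π ^ 2) := by positivity
      nlinarith [sq_nonneg (Real.cos (2 * π * x))]
    nlinarith
  have hKd : δ * K < d := by
    have : 0 < 1 / (n:ℝ) := by positivity
    linarith
  have hin : ∀ c ∈ Icc (0:ℝ) (1/8), ∀ x,
      (D x - δ * K) ^ 2 ≤ Q x - δ ^ 2 * (l x ^ 2 + (c * (2 * π * Real.cos (2 * π * x))) ^ 2) := by
    intro c hc x
    have h1 := mul_le_mul_of_nonneg_left (hM c hc x) (sq_nonneg δ)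
    have h2 := hDsq x
    have h3 : 0 < δ * K := by positivity
    have h4 := hd x
    nlinarith
  have hpos : ∀ c ∈ Icc (0:ℝ) (1/8), ∀ x,
      0 < Q x - δ ^ 2 * (l x ^ 2 + (c * (2 * π * Real.cos (2 * π * x))) ^ 2) := by
    intro c hc x
    refine lt_of_lt_of_le ?_ (hin c hc x)
    have := hd x
    apply pow_pos; linarith
  have hv1 : ∀ c ∈ Icc (0:ℝ) (1/8), ∀ x, D x - δ * K ≤ v c x := by
    intro c hc x
    exact Real.le_sqrt_of_sq_le (hin c hc x)
  have hv2 : ∀ c ∈ Icc (0:ℝ) (1/8), ∀ x, v c x ≤ D x := by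
    intro c hc x
    apply Real.sqrt_le_sqrt
    have : 0 ≤ δ ^ 2 * (l x ^ 2 + (c * (2 * π * Real.cos (2 * π * x))) ^ 2) := by positivity
    linarith
  set a := ∫ x in (0:ℝ)..1, D x with ha
  set μ := ∫ x in (0:ℝ)..1, m x with hμ
  set k1 : ℤ := ⌈(n:ℝ) * (μ + a)⌉ with hk1
  set k2 : ℤ := ⌊(n:ℝ) * (μ - a)⌋ with hk2
  have b1 := Int.le_ceil ((n:ℝ) * (μ + a))
  have b2 := Int.ceil_lt_add_one ((n:ℝ) * (μ + a))
  have b3 := Int.floor_le ((n:ℝ) * (μ - a))
  have b4 := Int.lt_floor_add_one ((n:ℝ) * (μ - a))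
  rw [← hk1] at b1 b2
  rw [← hk2] at b3 b4
  obtain ⟨c, hc, τ, hτ, hA, hB⟩ := solve D v d (δ * K) (1 / n) (k1 / n - μ) (μ - k2 / n)
    hDc hd0 hd hvc hv1 hv2 (by positivity) (by positivity) hsmall
    (by rw [← ha, le_sub_iff_add_le, le_div_iff₀ hn0]; linarith)
    (by rw [← ha, sub_le_iff_le_add, div_le_iff₀ hn0]; field_simp; linarith)
    (by rw [← ha, le_sub_comm, div_le_iff₀ hn0]; linarith)
    (by rw [← ha, sub_le_comm, le_div_iff₀ hn0]; field_simp; linarith)
  -- the angle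
  set W : ℝ → ℝ := fun x => c * (2 * π * Real.cos (2 * π * x)) with hW
  set θ : ℝ → ℝ := fun x => τ + c * Real.sin (2 * π * x) with hθ
  have hθd : ∀ x, HasDerivAt θ (W x) x := by
    intro x
    have h1 : HasDerivAt (fun x : ℝ => 2 * π * x) (2 * π) x := by
      simpa using (hasDerivAt_id x).const_mul (2 * π)
    have h2 : HasDerivAt θ (c * (Real.cos (2 * π * x) * (2 * π))) x :=
      (h1.sin.const_mul c).const_add τ
    have e : W x = c * (Real.cos (2 * π * x) * (2 * π)) := by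
      change c * (2 * π * Real.cos (2 * π * x)) = _
      ring
    rw [e]; exact h2
  have hθs : ContDiff ℝ ∞ θ := by
    simp only [hθ]; fun_prop
  have pθ : Function.Periodic θ 1 := by
    intro x
    simp only [hθ]
    have : 2 * π * (x + 1) = 2 * π * x + 2 * π := by ring
    rw [this, Real.sin_add_two_pi]
  have hθb : ∀ x, -(1/2) ≤ θ x ∧ θ x ≤ 1/2 := by
    intro x
    have h1 := Real.sin_le_one (2 * π * x)
    have h2 := Real.neg_one_le_sin (2 * π * x)
    simp only [hθ]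
    constructor <;> nlinarith [hc.1, hc.2, hτ.1, hτ.2]
  set S : ℝ → ℝ := fun x => Real.sin (π/4 + θ x) with hS
  set C : ℝ → ℝ := fun x => Real.cos (π/4 + θ x) with hC
  have hS0 : ∀ x, 0 < S x := by
    intro x
    have := sin_angle_pos (θ x)
    rwa [cl_eq (hθb x).1 (hθb x).2] at this
  have hC0 : ∀ x, 0 < C x := by
    intro x
    have := cos_angle_pos (θ x)
    rwa [cl_eq (hθb x).1 (hθb x).2] at this
  have hSs : ContDiff ℝ ∞ S := Real.contDiff_sin.comp (contDiff_const.add hθs)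
  have hCs : ContDiff ℝ ∞ C := Real.contDiff_cos.comp (contDiff_const.add hθs)
  have pS : Function.Periodic S 1 := fun x => by simp only [hS, pθ x]
  have pC : Function.Periodic C 1 := fun x => by simp only [hC, pθ x]
  have hSd : ∀ x, HasDerivAt S (C x * W x) x := fun x => ((hθd x).const_add (π/4)).sin
  have hCd : ∀ x, HasDerivAt C (-S x * W x) x := fun x => ((hθd x).const_add (π/4)).cos
  have hSC : ∀ x, S x ^ 2 + C x ^ 2 = 1 := fun x => Real.sin_sq_add_cos_sq _
  have hT1 : ∀ x, T (θ x) = S x / C x := by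
    intro x
    unfold T
    rw [cl_eq (hθb x).1 (hθb x).2, Real.tan_eq_sin_div_cos]
  have hT2 : ∀ x, T (-(θ x)) = C x / S x := by
    intro x
    rw [T_neg, hT1, inv_div]
  set w : ℝ → ℝ := fun x => v c x with hw
  have hws : ContDiff ℝ ∞ w := by
    simp only [hw, hv]
    apply ContDiff.sqrt
    · apply hQs.sub
      apply contDiff_const.mul
      apply (hls.pow 2).add
      fun_prop
    · intro x; exact (hpos c hc x).ne'
  have pw : Function.Periodic w 1 := by
    intro x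
    have : 2 * π * (x + 1) = 2 * π * x + 2 * π := by ring
    simp only [hw, hv, pQ x, pl x, this, Real.cos_add_two_pi]
  have hwsq : ∀ x, w x ^ 2 = Q x - δ ^ 2 * (l x ^ 2 + W x ^ 2) := by
    intro x
    exact Real.sq_sqrt (hpos c hc x).le
  set p1 : ℝ → ℝ := fun x => m x + S x / C x * w x with hp1
  set p2 : ℝ → ℝ := fun x => m x - C x / S x * w x with hp2
  have hSCs : ContDiff ℝ ∞ fun x => S x / C x := hSs.div hCs (fun x => (hC0 x).ne')
  have hCSs : ContDiff ℝ ∞ fun x => C x / S x := hCs.div hSs (fun x => (hS0 x).ne')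
  have hp1s : ContDiff ℝ ∞ p1 := hms.add (hSCs.mul hws)
  have hp2s : ContDiff ℝ ∞ p2 := hms.sub (hCSs.mul hws)
  have pp1 : Function.Periodic p1 1 := fun x => by simp only [hp1, pm x, pS x, pC x, pw x]
  have pp2 : Function.Periodic p2 1 := fun x => by simp only [hp2, pm x, pS x, pC x, pw x]
  have hI1 : ∫ x in (0:ℝ)..1, p1 x = k1 / n := by
    have e : ∫ x in (0:ℝ)..1, p1 x = (∫ x in (0:ℝ)..1, m x) + ∫ x in (0:ℝ)..1, S x / C x * w x :=
      intervalIntegral.integral_add (hms.continuous.intervalIntegrable _ _)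
        ((hSCs.mul hws).continuous.intervalIntegrable _ _)
    have e2 : ∫ x in (0:ℝ)..1, S x / C x * w x = k1 / n - μ := by
      rw [← hA]
      apply intervalIntegral.integral_congr
      intro x _
      simp only [hw]
      rw [← hT1 x]
    rw [e, e2]; ring
  have hI2 : ∫ x in (0:ℝ)..1, p2 x = k2 / n := by
    have e : ∫ x in (0:ℝ)..1, p2 x = (∫ x in (0:ℝ)..1, m x) - ∫ x in (0:ℝ)..1, C x / S x * w x :=
      intervalIntegral.integral_sub (hms.continuous.intervalIntegrable _ _)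
        ((hCSs.mul hws).continuous.intervalIntegrable _ _)
    have e2 : ∫ x in (0:ℝ)..1, C x / S x * w x = μ - k2 / n := by
      rw [← hB]
      apply intervalIntegral.integral_congr
      intro x _
      simp only [hw]
      rw [← hT2 x]
    rw [e, e2]; ring
  have hδn2 : 2 * π * n * δ = 1 := by
    rw [hδ]; field_simp
  have hd1 : ∀ x, deriv (fun x => δ * (g x * C x)) x = δ * (deriv g x * C x - g x * S x * W x) := by
    intro x
    have hgd : HasDerivAt g (deriv g x) x :=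
      ((contDiff_infty_iff_deriv.1 hgs).1 x).hasDerivAt
    have h : HasDerivAt (fun x => δ * (g x * C x)) (δ * (deriv g x * C x + g x * (-S x * W x))) x :=
      (hgd.mul (hCd x)).const_mul δ
    rw [h.deriv]
    ring
  have hd2 : ∀ x, deriv (fun x => δ * (g x * S x)) x = δ * (deriv g x * S x + g x * C x * W x) := by
    intro x
    have hgd : HasDerivAt g (deriv g x) x :=
      ((contDiff_infty_iff_deriv.1 hgs).1 x).hasDerivAt
    have h : HasDerivAt (fun x => δ * (g x * S x)) (δ * (deriv g x * S x + g x * (C x * W x))) x :=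
      (hgd.mul (hSd x)).const_mul δ
    rw [h.deriv]
    ring
  refine ⟨n, fun x => δ * (g x * C x), fun x => δ * (g x * S x), prim n p1, prim n p2, k1, k2,
    contDiff_const.mul (hgs.mul hCs), contDiff_const.mul (hgs.mul hSs),
    prim_smooth hp1s, prim_smooth hp2s, ?_, ?_, ?_, ?_, ?_, ?_, ?_⟩
  · intro x; simp only [pg x, pC x]
  · intro x; simp only [pg x, pS x]
  · intro x
    rw [prim_add_one hp1s.continuous pp1, hI1]
    field_simp
  · intro x
    rw [prim_add_one hp2s.continuous pp2, hI2]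
    field_simp
  · intro x
    have e : (2 * π * ((n:ℤ):ℝ)) ^ 2 * ((δ * (g x * C x)) ^ 2 + (δ * (g x * S x)) ^ 2)
        = (2 * π * n * δ) ^ 2 * g x ^ 2 * (S x ^ 2 + C x ^ 2) := by push_cast; ring
    rw [e, hδn2, hSC, hgsq]; ring
  · intro x
    rw [(prim_hasDerivAt (N := n) hp1s.continuous x).deriv,
      (prim_hasDerivAt (N := n) hp2s.continuous x).deriv]
    have e : (2 * π) ^ 2 * ((n:ℤ):ℝ) * (n * p1 x * (δ * (g x * C x)) ^ 2
        + n * p2 x * (δ * (g x * S x)) ^ 2)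
        = (2 * π * n * δ) ^ 2 * g x ^ 2 * (p1 x * C x ^ 2 + p2 x * S x ^ 2) := by push_cast; ring
    rw [e, hδn2, hgsq]
    have e2 : p1 x * C x ^ 2 + p2 x * S x ^ 2 = m x * (S x ^ 2 + C x ^ 2) := by
      have h1 := (hC0 x).ne'
      have h2 := (hS0 x).ne'
      simp only [hp1, hp2]
      field_simp
      ring
    rw [e2, hSC]
    simp only [hm]
    have := (hG0 x).ne'
    field_simp
  · intro x
    rw [hd1, hd2, (prim_hasDerivAt (N := n) hp1s.continuous x).deriv,
      (prim_hasDerivAt (N := n) hp2s.continuous x).deriv]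
    have e : (δ * (deriv g x * C x - g x * S x * W x)) ^ 2
        + (δ * (deriv g x * S x + g x * C x * W x)) ^ 2
        + (2 * π) ^ 2 * ((δ * (g x * C x)) ^ 2 * (n * p1 x) ^ 2 + (δ * (g x * S x)) ^ 2 * (n * p2 x) ^ 2)
        = δ ^ 2 * (S x ^ 2 + C x ^ 2) * (deriv g x ^ 2 + g x ^ 2 * W x ^ 2)
          + (2 * π * n * δ) ^ 2 * g x ^ 2 * (p1 x ^ 2 * C x ^ 2 + p2 x ^ 2 * S x ^ 2) := by ring
    rw [e, hδn2]
    have e2 : p1 x ^ 2 * C x ^ 2 + p2 x ^ 2 * S x ^ 2 = (m x ^ 2 + w x ^ 2) * (S x ^ 2 + C x ^ 2) := by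
      have h1 := (hC0 x).ne'
      have h2 := (hS0 x).ne'
      simp only [hp1, hp2]
      field_simp
      ring
    rw [e2, hSC, hwsq]
    have hgx := (hg0 x).ne'
    have hlx : deriv g x = l x * g x := by
      simp only [hl]; field_simp
    rw [hlx, hgsq]
    have e3 : δ ^ 2 * 1 * ((l x * g x) ^ 2 + G x * W x ^ 2)
        = δ ^ 2 * (l x ^ 2 * G x + G x * W x ^ 2) := by rw [← hgsq]; ring
    rw [e3]
    have hGx := (hG0 x).ne'
    simp only [hQ, hm]
    field_simp
    ring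

end Vale.Agent.H20.P205
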