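import Mathlib
import Vale.Agent.H20.P205Core

open Real Set
open scoped ContDiff

namespace Vale.Agent.H20.P205

/-- the explicit map of the plane into four-space -/
noncomputable def Phi (N : ℝ) (r1 r2 φ1 φ2 : ℝ → ℝ) (p : ℝ × ℝ) : Fin 4 → ℝ :=
  ![r1 p.1 * Real.cos (2 * π * (N * p.2 + φ1 p.1)), r1 p.1 * Real.sin (2 * π * (N * p.2 + φ1 p.1)),
    r2 p.1 * Real.cos (2 * π * (N * p.2 + φ2 p.1)), r2 p.1 * Real.sin (2 * π * (N * p.2 + φ2 p.1))]

lemma Phi_smooth {N : ℝ} {r1 r2 φ1 φ2 : ℝ → ℝ} (h1 : ContDiff ℝ ∞ r1) (h2 : ContDiff ℝ ∞ r2)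
    (h3 : ContDiff ℝ ∞ φ1) (h4 : ContDiff ℝ ∞ φ2) : ContDiff ℝ ∞ (Phi N r1 r2 φ1 φ2) := by
  have e1 : ContDiff ℝ ∞ fun p : ℝ × ℝ => r1 p.1 := h1.comp contDiff_fst
  have e2 : ContDiff ℝ ∞ fun p : ℝ × ℝ => r2 p.1 := h2.comp contDiff_fst
  have e3 : ContDiff ℝ ∞ fun p : ℝ × ℝ => φ1 p.1 := h3.comp contDiff_fst
  have e4 : ContDiff ℝ ∞ fun p : ℝ × ℝ => φ2 p.1 := h4.comp contDiff_fst
  rw [contDiff_pi]
  intro i
  fin_cases i <;> simp only [Phi] <;> simp <;> fun_prop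

/-- derivative of one component pair -/
lemma comp_deriv {N : ℝ} {r φ : ℝ → ℝ} {p : ℝ × ℝ} (hr : DifferentiableAt ℝ r p.1)
    (hφ : DifferentiableAt ℝ φ p.1) (v : ℝ × ℝ) :
    HasDerivAt (fun t : ℝ => r (p + t • v).1 * Real.cos (2 * π * (N * (p + t • v).2 + φ (p + t • v).1)))
      (deriv r p.1 * v.1 * Real.cos (2 * π * (N * p.2 + φ p.1))
        - r p.1 * Real.sin (2 * π * (N * p.2 + φ p.1)) * (2 * π * (N * v.2 + deriv φ p.1 * v.1))) 0 ∧
    HasDerivAt (fun t : ℝ => r (p + t • v).1 * Real.sin (2 * π * (N * (p + t • v).2 + φ (p + t • v).1)))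
      (deriv r p.1 * v.1 * Real.sin (2 * π * (N * p.2 + φ p.1))
        + r p.1 * Real.cos (2 * π * (N * p.2 + φ p.1)) * (2 * π * (N * v.2 + deriv φ p.1 * v.1))) 0 := by
  have hx : HasDerivAt (fun t : ℝ => (p + t • v).1) v.1 0 := by
    have : (fun t : ℝ => (p + t • v).1) = fun t => p.1 + t * v.1 := by
      funext t; simp
    rw [this]
    simpa using ((hasDerivAt_id (0:ℝ)).mul_const v.1).const_add p.1
  have hy : HasDerivAt (fun t : ℝ => (p + t • v).2) v.2 0 := by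
    have : (fun t : ℝ => (p + t • v).2) = fun t => p.2 + t * v.2 := by
      funext t; simp
    rw [this]
    simpa using ((hasDerivAt_id (0:ℝ)).mul_const v.2).const_add p.2
  have e0 : (p + (0:ℝ) • v).1 = p.1 := by simp
  have e0' : (p + (0:ℝ) • v).2 = p.2 := by simp
  have hr' : HasDerivAt (fun t : ℝ => r (p + t • v).1) (deriv r p.1 * v.1) 0 := by
    have := hr.hasDerivAt
    rw [← e0] at this
    have h := this.comp (0:ℝ) hx
    rw [e0] at h
    exact h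
  have hφ' : HasDerivAt (fun t : ℝ => φ (p + t • v).1) (deriv φ p.1 * v.1) 0 := by
    have := hφ.hasDerivAt
    rw [← e0] at this
    have h := this.comp (0:ℝ) hx
    rw [e0] at h
    exact h
  have hang : HasDerivAt (fun t : ℝ => 2 * π * (N * (p + t • v).2 + φ (p + t • v).1))
      (2 * π * (N * v.2 + deriv φ p.1 * v.1)) 0 :=
    ((hy.const_mul N).add hφ').const_mul (2 * π)
  constructor
  · have h := hr'.mul hang.cos
    refine (h.congr_deriv ?_)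
    simp only [zero_smul, add_zero]
    ring
  · have h := hr'.mul hang.sin
    refine (h.congr_deriv ?_)
    simp only [zero_smul, add_zero]
    ring

lemma fderiv_Phi {N : ℝ} {r1 r2 φ1 φ2 : ℝ → ℝ} (h1 : ContDiff ℝ ∞ r1) (h2 : ContDiff ℝ ∞ r2)
    (h3 : ContDiff ℝ ∞ φ1) (h4 : ContDiff ℝ ∞ φ2) (p v : ℝ × ℝ) :
    fderiv ℝ (Phi N r1 r2 φ1 φ2) p v =
      ![deriv r1 p.1 * v.1 * Real.cos (2 * π * (N * p.2 + φ1 p.1))
        - r1 p.1 * Real.sin (2 * π * (N * p.2 + φ1 p.1)) * (2 * π * (N * v.2 + deriv φ1 p.1 * v.1)),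
        deriv r1 p.1 * v.1 * Real.sin (2 * π * (N * p.2 + φ1 p.1))
        + r1 p.1 * Real.cos (2 * π * (N * p.2 + φ1 p.1)) * (2 * π * (N * v.2 + deriv φ1 p.1 * v.1)),
        deriv r2 p.1 * v.1 * Real.cos (2 * π * (N * p.2 + φ2 p.1))
        - r2 p.1 * Real.sin (2 * π * (N * p.2 + φ2 p.1)) * (2 * π * (N * v.2 + deriv φ2 p.1 * v.1)),
        deriv r2 p.1 * v.1 * Real.sin (2 * π * (N * p.2 + φ2 p.1))
        + r2 p.1 * Real.cos (2 * π * (N * p.2 + φ2 p.1)) * (2 * π * (N * v.2 + deriv φ2 p.1 * v.1))] := by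
  have hd : DifferentiableAt ℝ (Phi N r1 r2 φ1 φ2) p :=
    ((Phi_smooth h1 h2 h3 h4).differentiable (by simp)) p
  have hl := hd.hasFDerivAt.hasLineDerivAt v
  have d1 : DifferentiableAt ℝ r1 p.1 := (h1.differentiable (by simp)) _
  have d2 : DifferentiableAt ℝ r2 p.1 := (h2.differentiable (by simp)) _
  have d3 : DifferentiableAt ℝ φ1 p.1 := (h3.differentiable (by simp)) _
  have d4 : DifferentiableAt ℝ φ2 p.1 := (h4.differentiable (by simp)) _
  unfold HasLineDerivAt at hl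
  refine hl.unique ?_
  rw [hasDerivAt_pi]
  intro i
  fin_cases i
  · exact (comp_deriv (N := N) d1 d3 v).1
  · exact (comp_deriv (N := N) d1 d3 v).2
  · exact (comp_deriv (N := N) d2 d4 v).1
  · exact (comp_deriv (N := N) d2 d4 v).2

lemma Phi_periodic {N k1 k2 : ℤ} {r1 r2 φ1 φ2 : ℝ → ℝ}
    (pr1 : Function.Periodic r1 1) (pr2 : Function.Periodic r2 1)
    (q1 : ∀ x, φ1 (x + 1) = φ1 x + k1) (q2 : ∀ x, φ2 (x + 1) = φ2 x + k2) (p : ℝ × ℝ) (a b : ℤ) :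
    Phi N r1 r2 φ1 φ2 (p + ((a : ℝ), (b : ℝ))) = Phi N r1 r2 φ1 φ2 p := by
  have key : ∀ (φ : ℝ → ℝ) (k : ℤ), (∀ x, φ (x + 1) = φ x + k) → ∀ (x : ℝ) (a : ℤ),
      φ (x + a) = φ x + a * k := by
    intro φ k h x a
    induction a using Int.induction_on with
    | zero => simp
    | succ n ih =>
      push_cast at ih ⊢
      rw [← add_assoc, h, ih]; ring
    | pred n ih =>
      push_cast at ih ⊢
      have := h (x + (-(n:ℝ) - 1))
      have e : x + (-(n:ℝ) - 1) + 1 = x + -(n:ℝ) := by ring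
      rw [e, ih] at this
      linarith
  have per : ∀ (r : ℝ → ℝ), Function.Periodic r 1 → ∀ (x : ℝ) (a : ℤ), r (x + a) = r x := by
    intro r hr x a
    simpa using (hr.int_mul a) x
  have ang : ∀ (φ : ℝ → ℝ) (k : ℤ), (∀ x, φ (x + 1) = φ x + k) →
      2 * π * ((N:ℝ) * (p.2 + b) + φ (p.1 + a)) = 2 * π * (N * p.2 + φ p.1) + (N * b + a * k : ℤ) * (2 * π) := by
    intro φ k h
    rw [key φ k h]; push_cast; ring
  unfold Phi
  simp only [Prod.fst_add, Prod.snd_add]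
  rw [per r1 pr1, per r2 pr2, ang φ1 k1 q1, ang φ2 k2 q2]
  simp only [Real.cos_add_int_mul_two_pi, Real.sin_add_int_mul_two_pi]

end Vale.Agent.H20.P205
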